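import Mathlib

/-!
# P102 helper library: almost orthogonal Bessel inequality for a mixing transformation
-/

open MeasureTheory Filter Topology

namespace Vale.Agent.Lib.P102.Bessel

/-- Almost orthogonal Bessel inequality. -/
lemma bessel {V ι : Type*} [NormedAddCommGroup V] [InnerProductSpace ℝ V] [DecidableEq ι]
    (u : V) (hu : ‖u‖ ≤ 1) (h : ι → V) (F : Finset ι) (δ η : ℝ) (hδ : 0 ≤ δ)
    (hdiag : ∀ m ∈ F, inner ℝ (h m) (h m) ≤ 1 / 4)
    (hoff : ∀ m ∈ F, ∀ m' ∈ F, m ≠ m' → |inner ℝ (h m) (h m')| ≤ δ)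
    (hbig : ∀ m ∈ F, η ≤ |inner ℝ u (h m)|) (hη : 0 ≤ η) :
    ((F.card : ℝ) * η) ^ 2 ≤ (F.card : ℝ) / 4 + (F.card : ℝ) ^ 2 * δ := by
  set s : ι → ℝ := fun m => if 0 ≤ inner ℝ u (h m) then 1 else -1 with hs
  have hs1 : ∀ m, |s m| = 1 := by
    intro m; simp only [hs]; split_ifs <;> simp
  have hsabs : ∀ m, s m * inner ℝ u (h m) = |inner ℝ u (h m)| := by
    intro m
    simp only [hs]
    split_ifs with hc
    · rw [one_mul, abs_of_nonneg hc]
    · rw [abs_of_neg (not_le.mp hc)]; ring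
  set v : V := ∑ m ∈ F, s m • h m with hv
  have h1 : (F.card : ℝ) * η ≤ inner ℝ u v := by
    rw [hv, inner_sum]
    calc (F.card : ℝ) * η = ∑ _m ∈ F, η := by rw [Finset.sum_const, nsmul_eq_mul]
      _ ≤ ∑ m ∈ F, inner ℝ u (s m • h m) := by
          refine Finset.sum_le_sum (fun m hm => ?_)
          rw [inner_smul_right, hsabs]
          exact hbig m hm
  have h2 : inner ℝ u v ≤ ‖v‖ := by
    calc inner ℝ u v ≤ ‖u‖ * ‖v‖ := real_inner_le_norm u v
      _ ≤ 1 * ‖v‖ := mul_le_mul_of_nonneg_right hu (norm_nonneg _)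
      _ = ‖v‖ := one_mul _
  have h3 : ‖v‖ ^ 2 ≤ (F.card : ℝ) / 4 + (F.card : ℝ) ^ 2 * δ := by
    rw [← real_inner_self_eq_norm_sq, hv, sum_inner]
    calc ∑ m ∈ F, inner ℝ (s m • h m) (∑ m' ∈ F, s m' • h m')
        = ∑ m ∈ F, ∑ m' ∈ F, s m * s m' * inner ℝ (h m) (h m') := by
          refine Finset.sum_congr rfl (fun m _ => ?_)
          rw [inner_sum]
          refine Finset.sum_congr rfl (fun m' _ => ?_)
          rw [inner_smul_left, inner_smul_right]
          simp
          ring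
      _ ≤ ∑ m ∈ F, ∑ m' ∈ F, ((if m = m' then 1 / 4 else 0) + δ) := by
          refine Finset.sum_le_sum (fun m hm => Finset.sum_le_sum (fun m' hm' => ?_))
          by_cases hmm : m = m'
          · subst hmm
            rw [if_pos rfl]
            have e1 : s m * s m = 1 := by
              have := hs1 m
              rw [← abs_mul_abs_self, this]; ring
            rw [e1, one_mul]
            have := hdiag m hm
            linarith
          · rw [if_neg hmm, zero_add]
            have e1 : |s m * s m' * inner ℝ (h m) (h m')| ≤ δ := by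
              rw [abs_mul, abs_mul, hs1, hs1, one_mul, one_mul]
              exact hoff m hm m' hm' hmm
            exact le_trans (le_abs_self _) e1
      _ = (F.card : ℝ) / 4 + (F.card : ℝ) ^ 2 * δ := by
          have : ∀ m ∈ F, ∑ m' ∈ F, ((if m = m' then (1 / 4 : ℝ) else 0) + δ)
              = 1 / 4 + (F.card : ℝ) * δ := by
            intro m hm
            rw [Finset.sum_add_distrib, Finset.sum_ite_eq, if_pos hm, Finset.sum_const, nsmul_eq_mul]
          rw [Finset.sum_congr rfl this, Finset.sum_const, nsmul_eq_mul]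
          ring
  have h4 : 0 ≤ (F.card : ℝ) * η := by positivity
  calc ((F.card : ℝ) * η) ^ 2 ≤ ‖v‖ ^ 2 := pow_le_pow_left₀ h4 (le_trans h1 h2) 2
    _ ≤ _ := h3

variable {Ω : Type*} [MeasurableSpace Ω]

lemma uniformE (μ : Measure Ω) [IsProbabilityMeasure μ] (T : Ω → Ω) (hT : MeasurePreserving T μ μ)
    (C : Set Ω) (hC : MeasurableSet C) (δ η : ℝ) (hδ : 0 ≤ δ) (hη : 0 ≤ η) (L : ℕ)
    (hL : ∀ j, L ≤ j → |μ.real (C ∩ T^[j] ⁻¹' C) - μ.real C * μ.real C| ≤ δ)
    (E : Set Ω) (hE : MeasurableSet E) (F : Finset ℕ)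
    (hsep : ∀ m ∈ F, ∀ m' ∈ F, m < m' → m + L ≤ m')
    (hbad : ∀ m ∈ F, η ≤ |μ.real (E ∩ T^[m] ⁻¹' C) - μ.real E * μ.real C|) :
    ((F.card : ℝ) * η) ^ 2 ≤ (F.card : ℝ) / 4 + (F.card : ℝ) ^ 2 * δ := by
  have hTm : ∀ m, MeasurePreserving (T^[m]) μ μ := fun m => hT.iterate m
  have hCm : ∀ m, MeasurableSet (T^[m] ⁻¹' C) := fun m => (hTm m).measurable hC
  have hμm : ∀ m (S : Set Ω), MeasurableSet S → μ.real (T^[m] ⁻¹' S) = μ.real S := by
    intro m S hS
    simp only [Measure.real]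
    rw [(hTm m).measure_preimage hS.nullMeasurableSet]
  set e : ∀ S : Set Ω, MeasurableSet S → Lp ℝ 2 μ :=
    fun S hS => indicatorConstLp 2 hS (measure_ne_top μ S) (1 : ℝ) with he
  have hee : ∀ S S' (hS : MeasurableSet S) (hS' : MeasurableSet S'),
      inner ℝ (e S hS) (e S' hS') = μ.real (S ∩ S') := by
    intro S S' hS hS'
    exact L2.real_inner_indicatorConstLp_one_indicatorConstLp_one hS hS' _ _
  set p : ℝ := μ.real C with hp
  have hp0 : 0 ≤ p := measureReal_nonneg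
  have hp1 : p ≤ 1 := by
    have := measureReal_le_one (μ := μ) (s := C)
    exact this
  set h : ℕ → Lp ℝ 2 μ := fun m => e (T^[m] ⁻¹' C) (hCm m) - p • e Set.univ MeasurableSet.univ with hh
  have huniv : μ.real (Set.univ : Set Ω) = 1 := by simp
  have hinner : ∀ m m', inner ℝ (h m) (h m') = μ.real (T^[m] ⁻¹' C ∩ T^[m'] ⁻¹' C) - p * p := by
    intro m m'
    simp only [hh]
    rw [inner_sub_left, inner_sub_right, inner_sub_right, inner_smul_left, inner_smul_left,
      inner_smul_right, inner_smul_right, hee, hee, hee, hee, Set.inter_univ, Set.univ_inter,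
      Set.univ_inter, huniv, hμm m C hC, hμm m' C hC]
    simp
    ring
  have hshift : ∀ m m', m ≤ m' →
      μ.real (T^[m] ⁻¹' C ∩ T^[m'] ⁻¹' C) = μ.real (C ∩ T^[m' - m] ⁻¹' C) := by
    intro m m' hmm
    have h1 : T^[m'] ⁻¹' C = T^[m] ⁻¹' (T^[m' - m] ⁻¹' C) := by
      rw [← Set.preimage_comp, ← Function.iterate_add, Nat.sub_add_cancel hmm]
    rw [h1, ← Set.preimage_inter, hμm m _ (hC.inter (hCm _))]
  refine bessel (e E hE) ?_ h F δ η hδ ?_ ?_ ?_ hη
  · have h1 : ‖e E hE‖ ^ 2 ≤ 1 := by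
      rw [← real_inner_self_eq_norm_sq, hee, Set.inter_self]
      exact measureReal_le_one
    have h2 := norm_nonneg (e E hE)
    nlinarith
  · intro m _
    rw [hinner, Set.inter_self, hμm m C hC]
    nlinarith [sq_nonneg (p - 1 / 2)]
  · intro m hm m' hm' hne
    rw [hinner]
    rcases lt_or_gt_of_ne hne with hlt | hlt
    · rw [hshift m m' hlt.le]
      exact hL _ (by have := hsep m hm m' hm' hlt; omega)
    · rw [Set.inter_comm, hshift m' m hlt.le]
      exact hL _ (by have := hsep m' hm' m hm hlt; omega)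
  · intro m hm
    have h1 : inner ℝ (e E hE) (h m) = μ.real (E ∩ T^[m] ⁻¹' C) - μ.real E * p := by
      simp only [hh]
      rw [inner_sub_right, inner_smul_right, hee, hee, Set.inter_univ]
      ring
    rw [h1]
    exact hbad m hm

/-- For a mixing map: given `C` and `η > 0` there is `L` such that for every measurable `E` the
times `m` with `|μ(E ∩ T^{-m} C) - μ E μ C| ≥ η` contain at most `1 / (2 η^2)` pairwise
`L`-separated points. -/
theorem uniform_bound (μ : Measure Ω) [IsProbabilityMeasure μ] (T : Ω → Ω)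
    (hT : MeasurePreserving T μ μ)
    (hmix : ∀ A B : Set Ω, MeasurableSet A → MeasurableSet B →
      Tendsto (fun n : ℕ => μ.real (A ∩ T^[n] ⁻¹' B)) atTop (𝓝 (μ.real A * μ.real B)))
    (C : Set Ω) (hC : MeasurableSet C) (η : ℝ) (hη : 0 < η) :
    ∃ L : ℕ, ∀ E : Set Ω, MeasurableSet E → ∀ F : Finset ℕ,
      (∀ m ∈ F, ∀ m' ∈ F, m < m' → m + L ≤ m') →
      (∀ m ∈ F, η ≤ |μ.real (E ∩ T^[m] ⁻¹' C) - μ.real E * μ.real C|) →
      (F.card : ℝ) ≤ 1 / (2 * η ^ 2) := by
  have h1 := hmix C C hC hC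
  rw [Metric.tendsto_atTop] at h1
  obtain ⟨L, hL⟩ := h1 (η ^ 2 / 2) (by positivity)
  refine ⟨L, fun E hE F hsep hbad => ?_⟩
  have hL' : ∀ j, L ≤ j → |μ.real (C ∩ T^[j] ⁻¹' C) - μ.real C * μ.real C| ≤ η ^ 2 / 2 := by
    intro j hj
    have := hL j hj
    rw [Real.dist_eq] at this
    exact this.le
  have key := uniformE μ T hT C hC (η ^ 2 / 2) η (by positivity) hη.le L hL' E hE F hsep hbad
  rcases Nat.eq_zero_or_pos F.card with h0 | hpos
  · rw [h0]; simp; positivity
  · have hK : (0 : ℝ) < (F.card : ℝ) := by exact_mod_cast hpos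
    rw [le_div_iff₀ (by positivity)]
    have h2 : (F.card : ℝ) * ((F.card : ℝ) * (2 * η ^ 2)) ≤ (F.card : ℝ) * 1 := by nlinarith
    exact le_of_mul_le_mul_left h2 hK

end Vale.Agent.Lib.P102.Bessel
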